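import Vale.Agent.P139.R2.H866.Proj
import Vale.Agent.P139.H836.Recon

/-!
# P139-N, row R9 (9e): the projected cut-off flow gives a Galerkin solution
-/

set_option autoImplicit false

open Set Metric Filter Topology
open scoped NNReal ComplexConjugate

namespace Vale.Agent.P139.BN

open Vale.Agent.P139.A Vale.Agent.P139.A.WA

variable {d k : ℕ}

/-- A curve with initial value in the range of the projection and derivative in the range stays
in the range. -/
theorem PB_stays {L : ℕ} {T : ℝ} {y y' : ℝ → WA d k} (hy0 : PB L (y 0) = y 0)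
    (hy : ∀ t ∈ Icc 0 T, HasDerivWithinAt y (PB L (y' t)) (Icc 0 T) t) :
    ∀ t ∈ Icc 0 T, PB L (y t) = y t := by
  intro t ht
  refine PB_eq_self fun n hn => ?_
  have h0T : (0 : ℝ) ∈ Icc 0 T := ⟨le_rfl, ht.1.trans ht.2⟩
  have h1 := (convex_Icc (0 : ℝ) T).norm_image_sub_le_of_norm_hasDerivWithin_le
    (f := fun t => coef (y t) n) (C := 0) (f' := fun t => coef (PB L (y' t)) n)
    (fun s hs => ((coefR (d := d) (k := k) n).hasFDerivAt.comp_hasDerivWithinAt s (hy s hs)))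
    (fun s hs => by rw [coef_PB, if_neg hn, norm_zero]) h0T ht
  rw [zero_mul] at h1
  have h2 := sub_eq_zero.1 (norm_le_zero_iff.1 h1)
  rw [h2, ← hy0, coef_PB, if_neg hn]

/-- **(9e)** The projected flow in the interaction picture gives a Galerkin solution. -/
theorem gsol_of_flow {m : ℕ} {c : ℝ} {μ : ℝ} (hμ : 0 ≤ μ) (hmc : μ = m * c ^ (2 * m)) {e : ℝ}
    {L : ℕ} {T : ℝ} {y : ℝ → WA d k} (hy0 : PB L (y 0) = y 0)
    (hy : ∀ t ∈ Icc 0 T, HasDerivWithinAt y
      (PB L (S k hμ (-t) (H836.fe m c e (S k hμ t (y t))))) (Icc 0 T) t)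
    (hb : ∀ t ∈ Icc 0 T, ‖S k hμ t (y t)‖ ≤ c / 2) :
    GSol d k m c e (box d L) T (fun t => S k hμ t (y t)) := by
  have hst := PB_stays hy0 hy
  have hyc : ContinuousOn y (Icc 0 T) := fun t ht => (hy t ht).continuousWithinAt
  have hsupp : ∀ t ∈ Icc 0 T, ∀ n, n ∉ box d L → coef (S k hμ t (y t)) n = 0 := by
    intro t ht n hn
    rw [← hst t ht, ← PB_S, coef_PB, if_neg hn]
  refine ⟨hsupp, continuousOn_S hμ hyc, hb, fun t ht n hn => ?_⟩
  have hn0 : n ≠ 0 := fun h => zero_not_box (h ▸ hn)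
  have h1 := hasDeriv_S hμ (hy t ht) n
  refine h1.congr_deriv ?_
  rw [← PB_S, S_S_neg, coef_PB, if_pos hn, if_neg hn0]
  have hz : H836.Pz (S k hμ t (y t)) = S k hμ t (y t) :=
    H836.Pz_of_zero (hsupp t ht 0 zero_not_box)
  unfold H836.fe
  rw [coef_sub, H836.coef_Pz, coef_Lin, if_neg hn0, if_neg hn0, hz, ← hmc]
  ring

end Vale.Agent.P139.BN
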