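import Mathlib.Analysis.ODE.Gronwall
import Mathlib.Topology.MetricSpace.Pseudo.Basic

/-!
# P139-N, row R9 (9d): comparison of a flow with its Galerkin approximations
-/

set_option autoImplicit false

open Set Metric Filter Topology
open scoped NNReal

namespace Vale.Agent.P139.H866

variable {E : Type*} [NormedAddCommGroup E] [NormedSpace ℝ E]

/-- Contractions that converge pointwise on a compact set converge uniformly on it. -/
theorem unif_on_compact {P : ℕ → E →L[ℝ] E} (hP : ∀ L x, ‖P L x‖ ≤ ‖x‖) {s : Set E}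
    (hs : IsCompact s) (h : ∀ x ∈ s, Tendsto (fun L => P L x) atTop (𝓝 x)) {ε : ℝ} (hε : 0 < ε) :
    ∃ L₀ : ℕ, ∀ L ≥ L₀, ∀ x ∈ s, ‖P L x - x‖ ≤ ε := by
  obtain ⟨t, hts, htf, hcov⟩ := hs.finite_cover_balls (by positivity : (0 : ℝ) < ε / 3)
  have h1 : ∀ x ∈ t, ∀ᶠ L in atTop, ‖P L x - x‖ ≤ ε / 3 := by
    intro x hx
    have h2 := (tendsto_iff_norm_sub_tendsto_zero.1 (h x (hts hx))).eventually
      (gt_mem_nhds (by positivity : (0 : ℝ) < ε / 3))
    filter_upwards [h2] with L hL using hL.le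
  have h3 : ∀ᶠ L in atTop, ∀ x ∈ t, ‖P L x - x‖ ≤ ε / 3 := by
    rw [← htf.coe_toFinset] at h1 ⊢
    simp only [Finset.mem_coe] at h1 ⊢
    exact (Filter.eventually_all_finset _).2 h1
  obtain ⟨L₀, hL₀⟩ := eventually_atTop.1 h3
  refine ⟨L₀, fun L hL x hx => ?_⟩
  obtain ⟨c, hc, hxc⟩ := mem_iUnion₂.1 (hcov hx)
  rw [mem_ball, dist_eq_norm] at hxc
  have e : P L x - x = P L (x - c) + (P L c - c) - (x - c) := by
    rw [map_sub]; abel
  rw [e]
  calc ‖P L (x - c) + (P L c - c) - (x - c)‖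
      ≤ ‖P L (x - c)‖ + ‖P L c - c‖ + ‖x - c‖ := by
        refine (norm_sub_le _ _).trans ?_
        gcongr
        exact norm_add_le _ _
    _ ≤ ε / 3 + ε / 3 + ε / 3 := by
        gcongr
        · exact (hP L _).trans hxc.le
        · exact hL₀ L hL c hc
    _ = ε := by ring

/-- **Comparison of a flow with its Galerkin approximations.** -/
theorem gron_conv {G : ℝ → E → E} {K : ℝ} (hK : 0 ≤ K) {T : ℝ}
    (hG : ∀ t ∈ Icc 0 T, ∀ x x', ‖G t x - G t x'‖ ≤ K * ‖x - x'‖)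
    {P : ℕ → E →L[ℝ] E} (hP : ∀ L x, ‖P L x‖ ≤ ‖x‖) {y : ℝ → E}
    (hy : ∀ t ∈ Icc 0 T, HasDerivWithinAt y (G t (y t)) (Icc 0 T) t)
    (hGc : ContinuousOn (fun t => G t (y t)) (Icc 0 T))
    (hPc : ∀ t ∈ Icc 0 T, Tendsto (fun L => P L (G t (y t))) atTop (𝓝 (G t (y t))))
    {yL : ℕ → ℝ → E}
    (hyL : ∀ L, ∀ t ∈ Icc 0 T, HasDerivWithinAt (yL L) (P L (G t (yL L t))) (Icc 0 T) t)
    (h0 : Tendsto (fun L => yL L 0) atTop (𝓝 (y 0))) {ε : ℝ} (hε : 0 < ε) :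
    ∃ L₀ : ℕ, ∀ L ≥ L₀, ∀ t ∈ Icc 0 T, ‖yL L t - y t‖ ≤ ε := by
  -- the small quantity
  set η : ℝ := ε / (2 * Real.exp ((K + 1) * T)) with hη
  have hη0 : 0 < η := by positivity
  obtain ⟨L₁, hL₁⟩ := unif_on_compact hP (isCompact_Icc.image_of_continuousOn hGc)
    (by rintro _ ⟨t, ht, rfl⟩; exact hPc t ht) hη0
  have h2 := (tendsto_iff_norm_sub_tendsto_zero.1 h0).eventually (gt_mem_nhds hη0)
  obtain ⟨L₂, hL₂⟩ := eventually_atTop.1 h2
  refine ⟨max L₁ L₂, fun L hL t ht => ?_⟩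
  have hL1 := hL₁ L ((le_max_left _ _).trans hL)
  have hL2 := (hL₂ L ((le_max_right _ _).trans hL)).le
  have hd : ∀ s ∈ Icc 0 T, HasDerivWithinAt (fun s => yL L s - y s)
      (P L (G s (yL L s)) - G s (y s)) (Icc 0 T) s := fun s hs => (hyL L s hs).sub (hy s hs)
  have hc : ContinuousOn (fun s => yL L s - y s) (Icc 0 T) :=
    fun s hs => (hd s hs).continuousWithinAt
  have hb : ∀ s ∈ Ico 0 T, ‖P L (G s (yL L s)) - G s (y s)‖ ≤
      (K + 1) * ‖yL L s - y s‖ + η := by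
    intro s hs
    have hs' : s ∈ Icc 0 T := ⟨hs.1, hs.2.le⟩
    have e : P L (G s (yL L s)) - G s (y s) =
        P L (G s (yL L s) - G s (y s)) + (P L (G s (y s)) - G s (y s)) := by
      rw [map_sub]; abel
    rw [e]
    calc _ ≤ ‖P L (G s (yL L s) - G s (y s))‖ + ‖P L (G s (y s)) - G s (y s)‖ := norm_add_le _ _
      _ ≤ K * ‖yL L s - y s‖ + η := by
          gcongr
          · exact (hP L _).trans (hG s hs' _ _)
          · exact hL1 _ (mem_image_of_mem _ hs')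
      _ ≤ (K + 1) * ‖yL L s - y s‖ + η := by
          gcongr
          linarith
  have hd' : ∀ s ∈ Ico 0 T, HasDerivWithinAt (fun s => yL L s - y s)
      (P L (G s (yL L s)) - G s (y s)) (Ici s) s := by
    intro s hs
    exact (hd s ⟨hs.1, hs.2.le⟩).mono_of_mem_nhdsWithin
      (mem_of_superset (Icc_mem_nhdsGE hs.2) (Icc_subset_Icc_left hs.1))
  have hgr := norm_le_gronwallBound_of_norm_deriv_right_le hc hd' hL2 hb t ht
  rw [sub_zero, gronwallBound_of_K_ne_0 (by positivity : K + 1 ≠ 0)] at hgr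
  have hT : (0 : ℝ) ≤ T := ht.1.trans ht.2
  have he : Real.exp ((K + 1) * t) ≤ Real.exp ((K + 1) * T) := by
    gcongr
    exact ht.2
  have he1 : 1 ≤ Real.exp ((K + 1) * t) := Real.one_le_exp (by have := ht.1; positivity)
  have hq : η / (K + 1) ≤ η := div_le_self hη0.le (by linarith)
  calc ‖yL L t - y t‖ ≤ η * Real.exp ((K + 1) * t) + η / (K + 1) * (Real.exp ((K + 1) * t) - 1) := hgr
    _ ≤ η * Real.exp ((K + 1) * T) + η * Real.exp ((K + 1) * T) := by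
        have h5 : Real.exp ((K + 1) * t) - 1 ≤ Real.exp ((K + 1) * T) := by linarith
        have h6 : 0 ≤ Real.exp ((K + 1) * t) - 1 := by linarith
        gcongr
    _ = ε := by
        rw [hη]
        field_simp
        norm_num

end Vale.Agent.P139.H866

namespace Vale.Agent.P139.BN

/-- **Convergence of the Galerkin flows** (form used by row R9). -/
theorem galerkin_conv {X : Type*} [NormedAddCommGroup X] [NormedSpace ℝ X] {g : ℝ → X → X}
    {K T : ℝ} (hK : 0 ≤ K) (_hT : 0 ≤ T)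
    (hg : ∀ t ∈ Icc 0 T, ∀ x x1, ‖g t x - g t x1‖ ≤ K * ‖x - x1‖) {y : ℝ → X}
    (hy : ∀ t ∈ Icc 0 T, HasDerivWithinAt y (g t (y t)) (Icc 0 T) t)
    (hgc : ContinuousOn (fun t => g t (y t)) (Icc 0 T))
    {P : ℕ → X →L[ℝ] X} (hP : ∀ L x, ‖P L x‖ ≤ ‖x‖)
    (hPc : ∀ t ∈ Icc 0 T, Tendsto (fun L => P L (g t (y t))) atTop (𝓝 (g t (y t))))
    (hP0 : Tendsto (fun L => P L (y 0)) atTop (𝓝 (y 0))) {yL : ℕ → ℝ → X}
    (h0 : ∀ L, yL L 0 = P L (y 0))
    (hL : ∀ L, ∀ t ∈ Icc 0 T, HasDerivWithinAt (yL L) (P L (g t (yL L t))) (Icc 0 T) t) :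
    ∀ ε > 0, ∃ L₀ : ℕ, ∀ L ≥ L₀, ∀ t ∈ Icc 0 T, ‖yL L t - y t‖ ≤ ε := by
  intro ε hε
  refine H866.gron_conv hK hg hP hy hgc hPc hL ?_ hε
  simpa only [h0] using hP0

end Vale.Agent.P139.BN
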