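import Vale.Agent.P139.R2.H556.Defs

/-!
# P139-N, row R9 (9c): the Galerkin projections of the Wiener algebra
-/

set_option autoImplicit false

open Set Metric Filter Topology
open scoped NNReal ComplexConjugate

namespace Vale.Agent.P139.BN

open Vale.Agent.P139.A Vale.Agent.P139.A.WA

variable {d k : ℕ}

theorem mem_box {L : ℕ} {n : Lat d} : n ∈ box d L ↔ n ≠ 0 ∧ ∀ i, -(L : ℤ) ≤ n i ∧ n i ≤ L := by
  unfold box
  rw [Finset.mem_erase, Fintype.mem_piFinset]
  simp only [Finset.mem_Icc]

theorem zero_not_box {L : ℕ} : (0 : Lat d) ∉ box d L := fun h => (mem_box.1 h).1 rfl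

theorem neg_box {L : ℕ} {n : Lat d} (h : n ∈ box d L) : -n ∈ box d L := by
  rw [mem_box] at h ⊢
  refine ⟨neg_ne_zero.2 h.1, fun i => ?_⟩
  have := h.2 i
  rw [Pi.neg_apply]
  omega

theorem neg_mem_box_iff {L : ℕ} {n : Lat d} : -n ∈ box d L ↔ n ∈ box d L :=
  ⟨fun h => by simpa using neg_box h, neg_box⟩

theorem eventually_mem_box {n : Lat d} (hn : n ≠ 0) : ∀ᶠ L : ℕ in atTop, n ∈ box d L := by
  rw [eventually_atTop]
  refine ⟨∑ i, (n i).natAbs, fun L hL => mem_box.2 ⟨hn, fun i => ?_⟩⟩
  have h1 : (n i).natAbs ≤ ∑ i, (n i).natAbs :=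
    Finset.single_le_sum (f := fun i => (n i).natAbs) (fun _ _ => Nat.zero_le _) (Finset.mem_univ i)
  omega

/-- The Galerkin projection onto the modes in `box d L`. -/
noncomputable def PB (L : ℕ) : WA d k →L[ℝ] WA d k :=
  pairOp (fun n => if n ∈ box d L then 1 else 0) (fun _ => 0) 1
    (fun n => by split_ifs <;> simp) (fun n => by simp)

theorem coef_PB (L : ℕ) (a : WA d k) (n : Lat d) :
    coef (PB L a) n = if n ∈ box d L then coef a n else 0 := by
  unfold PB
  rw [coef_pairOp]
  split_ifs <;> simp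

theorem norm_PB_le (L : ℕ) (a : WA d k) : ‖PB L a‖ ≤ ‖a‖ := by
  rw [norm_eq, norm_eq]
  refine (PB L a).summable.tsum_le_tsum (fun n => ?_) a.summable
  rw [coef_PB]
  have := (W_pos (k := k) n).le
  split_ifs
  · exact le_rfl
  · simp only [norm_zero, mul_zero]
    positivity

theorem PB_PB (L : ℕ) (a : WA d k) : PB L (PB L a) = PB L a := by
  ext n
  simp only [coef_PB]
  split_ifs <;> rfl

theorem PB_eq_self {L : ℕ} {a : WA d k} (h : ∀ n, n ∉ box d L → coef a n = 0) : PB L a = a := by
  ext n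
  rw [coef_PB]
  split_ifs with hn
  · rfl
  · exact (h n hn).symm

/-- The projections commute with the propagator. -/
theorem PB_S {μ : ℝ} (hμ : 0 ≤ μ) (t : ℝ) (L : ℕ) (a : WA d k) :
    PB L (S k hμ t a) = S k hμ t (PB L a) := by
  ext n
  rw [coef_PB, coef_S, coef_S, coef_PB, coef_PB]
  simp only [neg_mem_box_iff]
  split_ifs <;> simp

theorem tendsto_PB {a : WA d k} (h : coef a 0 = 0) : Tendsto (fun L => PB L a) atTop (𝓝 a) := by
  rw [tendsto_iff_norm_sub_tendsto_zero]
  simp_rw [norm_eq]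
  have h0 : ∑' n : Lat d, (0 : ℝ) = 0 := tsum_zero
  rw [← h0]
  refine tendsto_tsum_of_dominated_convergence (bound := fun n => W k n * ‖coef a n‖) a.summable
    (fun n => ?_) (Eventually.of_forall fun L n => ?_)
  · by_cases hn : n = 0
    · subst hn
      refine tendsto_const_nhds.congr fun L => ?_
      rw [coef_sub, coef_PB, if_neg zero_not_box, h, sub_zero, norm_zero, mul_zero]
    · refine tendsto_const_nhds.congr' ?_
      filter_upwards [eventually_mem_box hn] with L hL
      rw [coef_sub, coef_PB, if_pos hL, sub_self, norm_zero, mul_zero]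
  · rw [Real.norm_of_nonneg (mul_nonneg (W_pos n).le (norm_nonneg _)), coef_sub, coef_PB]
    have := (W_pos (k := k) n).le
    split_ifs
    · rw [sub_self, norm_zero, mul_zero]
      positivity
    · rw [zero_sub, norm_neg]

end Vale.Agent.P139.BN
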